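import Crest.Statements.S0166
import Crest.Agent.Lib.S0166.Helper32Core
import Crest.Agent.Lib.S0166.Helper32Defs
import Crest.Agent.Lib.S0166.Helper32Moduli
import Crest.Agent.Lib.S0166.Helper30Diamond
import Crest.Agent.Lib.S0166.Helper49Reflexive
import Crest.Agent.Lib.S0166.Helper80Trunc
import Crest.Agent.Lib.S0166.Helper72Midpoint
import Crest.Agent.Lib.S0166.Helper73Trees
import Crest.Agent.Lib.S0168.Helper24Core

set_option autoImplicit false
open Crest Crest.AnalysisR

namespace Crest.Agent.S0166

open Crest.Agent.S0166.Helper32 in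
/-- The max-midpoint modulus of the space `E0` (the `ℓ₂`-sum of the depth-`≤ k` truncations of the
global tree-potential model). -/
theorem E0_maxMid (t : ℝ) (ht : 0 < t) :
    E0.MaxMidpointModulusGE E0.norm t (Real.sqrt (1 + t ^ 2 / 4) - 1) := by
  intro x hx η hη
  exact Crest.Agent.S0166.Helper72.lp_two_maxMidpoint (fun k : ℕ => truncSpace k)
    (fun k x ε hε => Crest.Agent.S0166.Helper72.trunc_midpoint_of_core
      (fun x hx ε hε => Crest.Agent.S0168.Helper24.core_midpoint
        Crest.AnalysisR.TreePotential.PotentialModel.global x hx ε hε) k x ε hε)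
    x hx t ht η hη

open Crest.Agent.S0166.Helper32 in
/-- There is a real Banach space (RealBanach record) that is separable, infinite-dimensional and reflexive, whose given norm has at every t > 0 averaged midpoint asymptotic modulus at least √(1 + t²/12) - 1 and at least (√(1 + t²/4) - 1)/2 and maximum-based midpoint modulus at least √(1 + t²/4) - 1, on which no equivalent norm is asymptotically uniformly convex, and in which for every k every map of the depth-k countably branching diamond graph of distortion at most D has 1 + k/4 ≤ D². -/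
theorem result :
    ∃ E : Crest.AnalysisR.RealBanach, E.IsSeparableInfiniteDim ∧ E.IsReflexive ∧
      (∀ t : ℝ, 0 < t → E.MidpointModulusGE E.norm t (Real.sqrt (1 + t ^ 2 / 12) - 1) ∧
        E.MidpointModulusGE E.norm t ((Real.sqrt (1 + t ^ 2 / 4) - 1) / 2) ∧
        E.MaxMidpointModulusGE E.norm t (Real.sqrt (1 + t ^ 2 / 4) - 1)) ∧
      (∀ N : E.X → ℝ, E.IsEquivNorm N → ¬ E.IsAUC N) ∧
      ∀ (k : ℕ) (f : Crest.AnalysisR.DiamondVertex k → E.X) (D : ℝ),
        E.HasDistortionLE k f D → 1 + (k : ℝ) / 4 ≤ D ^ 2 := by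
  refine ⟨E0, ⟨Crest.Agent.S0166.Helper73.E0_separable,
    Crest.Agent.S0166.Helper73.E0_not_finiteDimensional⟩, ?_, ?_, ?_, ?_⟩
  · exact Crest.Agent.S0166.Helper49.lp_two_reflexive (fun k : ℕ => truncSpace k)
      Crest.Agent.S0166.Helper80.truncSpace_reflexive
  · intro t ht
    have h := midpoint_of_maxMidpoint E0 E0_maxMid t ht
    exact ⟨h.1, h.2, E0_maxMid t ht⟩
  · intro N hN
    rw [isAUC_iff]
    rw [isEquivNorm_iff] at hN
    exact not_isAUCG_of_treeNode one_pos one_pos Crest.Agent.S0166.Helper73.E0_trees N hN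
  · intro k f D hD
    exact Crest.Agent.S0166.Helper30.diamond_distortion E0 E0_maxMid k f D hD

end Crest.Agent.S0166
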