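import Crest.Statements.S0167
import Crest.Agent.Lib.S0166.Helper32Core
import Crest.Agent.Lib.S0167.Helper28Lower
import Crest.Agent.Lib.S0167.Helper29Shvidkoy

set_option autoImplicit false
open Crest Crest.AnalysisR

namespace Crest.Agent.S0167

section Upper

open Crest.Agent.S0166.Helper32

variable {V : Type*} [NormedAddCommGroup V] [NormedSpace ℝ V]

/-- From `‖x + 2 y‖ ≤ 1 + η` to `‖x + t y‖ ≤ max 1 (t - 1) + η`. -/
theorem norm_add_smul_le {x y : V} (hx : ‖x‖ = 1) (hy : ‖y‖ = 1) {η : ℝ} (hη : 0 ≤ η)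
    (h : ‖x + (2 : ℝ) • y‖ ≤ 1 + η) {t : ℝ} (ht : 0 < t) :
    ‖x + t • y‖ ≤ max 1 (t - 1) + η := by
  rcases le_total t 2 with h2 | h2
  · have e : x + t • y = (1 - t / 2) • x + (t / 2) • (x + (2 : ℝ) • y) := by
      rw [smul_add, smul_smul, sub_smul, one_smul]
      have : t / 2 * 2 = t := by ring
      rw [this]
      abel
    have h1 : ‖(1 - t / 2) • x‖ = 1 - t / 2 := by
      rw [norm_smul, hx, mul_one, Real.norm_of_nonneg (by linarith)]
    have h3 : ‖(t / 2) • (x + (2 : ℝ) • y)‖ ≤ (t / 2) * (1 + η) := by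
      rw [norm_smul, Real.norm_of_nonneg (by linarith)]
      exact mul_le_mul_of_nonneg_left h (by linarith)
    have h4 : ‖x + t • y‖ ≤ (1 - t / 2) + (t / 2) * (1 + η) := by
      rw [e]
      exact (norm_add_le _ _).trans (by rw [h1]; linarith)
    have h5 : (1 : ℝ) ≤ max 1 (t - 1) := le_max_left _ _
    nlinarith
  · have e : x + t • y = (x + (2 : ℝ) • y) + (t - 2) • y := by
      rw [sub_smul]
      abel
    have h1 : ‖(t - 2) • y‖ = t - 2 := by
      rw [norm_smul, hy, mul_one, Real.norm_of_nonneg (by linarith)]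
    have h4 : ‖x + t • y‖ ≤ (1 + η) + (t - 2) := by
      rw [e]
      exact (norm_add_le _ _).trans (by rw [h1]; linarith)
    have h5 : t - 1 ≤ max 1 (t - 1) := le_max_right _ _
    linarith

theorem norm_sub_smul_le {x y : V} (hx : ‖x‖ = 1) (hy : ‖y‖ = 1) {t : ℝ} (ht : 0 < t) :
    ‖x - t • y‖ ≤ 1 + t := by
  calc ‖x - t • y‖ ≤ ‖x‖ + ‖t • y‖ := norm_sub_le _ _
    _ = 1 + t := by rw [norm_smul, hx, hy, mul_one, Real.norm_of_nonneg ht.le]

/-- A Daugavet space has no equivalent asymptotically uniformly convex norm. -/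
theorem not_isAUCG_of_daugavet (hD : Crest.AnalysisR.L1Subspace.HasDaugavetProperty V)
    (N : V → ℝ) (hN : IsEquivNormG N) : ¬ IsAUCG N := by
  obtain ⟨v, hv⟩ := Crest.Agent.S0167.Helper29.daugavet_nontrivial hD
  have hvn : 0 < ‖v‖ := norm_pos_iff.mpr hv
  refine not_isAUCG_of_tree (T := {x : V | ‖x‖ = 1}) (R := 1) (δ := 1) one_pos
    ⟨‖v‖⁻¹ • v, ?_⟩ (fun x hx => le_of_eq hx) (fun x hx F hF ε hε => ?_) N hN
  · show ‖‖v‖⁻¹ • v‖ = 1
    rw [norm_smul, norm_inv, norm_norm, inv_mul_cancel₀ hvn.ne']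
  · have hx1 : ‖x‖ = 1 := hx
    set η : ℝ := min ε 1 / 2 with hηdef
    have hη : 0 < η := by
      have : 0 < min ε 1 := lt_min hε one_pos
      positivity
    have hηε : η < ε := by
      have : min ε 1 ≤ ε := min_le_left _ _
      have h0 : 0 < min ε 1 := lt_min hε one_pos
      rw [hηdef]
      linarith
    have hη1 : η ≤ 1 / 2 := by
      have : min ε 1 ≤ 1 := min_le_right _ _
      rw [hηdef]
      linarith
    obtain ⟨y, hyF, hy1, hy2⟩ := Crest.Agent.S0167.Helper29.daugavet_cof hD x hx1 F hF η hη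
    set z : V := x + (2 : ℝ) • y with hz
    have hz1 : 1 ≤ ‖z‖ := by
      have h1 : ‖(2 : ℝ) • y‖ ≤ ‖z‖ + ‖x‖ := by
        have : (2 : ℝ) • y = z - x := by rw [hz]; abel
        rw [this]
        exact norm_sub_le _ _
      rw [norm_smul, hy1, hx1] at h1
      norm_num at h1
      linarith
    have hzpos : 0 < ‖z‖ := lt_of_lt_of_le one_pos hz1
    refine ⟨‖z‖⁻¹ • z, ?_, (2 : ℝ) • y, hF.smul_mem _ hyF, ?_, ?_⟩
    · show ‖‖z‖⁻¹ • z‖ = 1
      rw [norm_smul, norm_inv, norm_norm, inv_mul_cancel₀ hzpos.ne']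
    · have e : ‖z‖⁻¹ • z - x - (2 : ℝ) • y = (‖z‖⁻¹ - 1) • z := by
        rw [sub_smul, one_smul, hz]
        abel
      have h1 : ‖(‖z‖⁻¹ - 1) • z‖ = ‖z‖ - 1 := by
        have h2 : ‖z‖⁻¹ - 1 = (1 - ‖z‖) * ‖z‖⁻¹ := by field_simp
        rw [norm_smul, h2, norm_mul, norm_inv, norm_norm, mul_assoc, inv_mul_cancel₀ hzpos.ne',
          mul_one, Real.norm_eq_abs, abs_sub_comm, abs_of_nonneg (by linarith)]
      rw [e, h1]
      linarith
    · have e : ‖z‖⁻¹ • z - x = (2 : ℝ) • y + (‖z‖⁻¹ - 1) • z := by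
        rw [sub_smul, one_smul, hz]
        abel
      have h1 : ‖(‖z‖⁻¹ - 1) • z‖ = ‖z‖ - 1 := by
        have h2 : ‖z‖⁻¹ - 1 = (1 - ‖z‖) * ‖z‖⁻¹ := by field_simp
        rw [norm_smul, h2, norm_mul, norm_inv, norm_norm, mul_assoc, inv_mul_cancel₀ hzpos.ne',
          mul_one, Real.norm_eq_abs, abs_sub_comm, abs_of_nonneg (by linarith)]
      have h3 : ‖(2 : ℝ) • y‖ = 2 := by
        rw [norm_smul, hy1]
        norm_num
      have h4 : ‖(2 : ℝ) • y‖ - ‖(‖z‖⁻¹ - 1) • z‖ ≤ ‖(2 : ℝ) • y + (‖z‖⁻¹ - 1) • z‖ := by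
        have := norm_sub_norm_le ((2 : ℝ) • y) (-((‖z‖⁻¹ - 1) • z))
        rwa [norm_neg, sub_neg_eq_add] at this
      rw [e]
      rw [h3, h1] at h4
      linarith

end Upper

/-- Let E be an infinite-dimensional closed subspace of the real L¹ of a probability space whose closed unit ball is totally bounded for convergence in measure and whose norm has the Daugavet property. Then at every unit x ∈ E and every t > 0 the averaged midpoint quantity sup_F inf_y ((‖x+ty‖+‖x-ty‖)/2 - 1) equals max(t/2, t-1) and the one-sided one sup_F inf_y (‖x+ty‖ - 1) equals max(0, t-2), as matching lower and upper bounds, and E admits no equivalent asymptotically uniformly convex norm. -/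
theorem result (Ω : Type) [MeasurableSpace Ω] (P : MeasureTheory.Measure Ω) [MeasureTheory.IsProbabilityMeasure P]
    (E : Submodule ℝ (MeasureTheory.Lp ℝ 1 P)) (hcl : IsClosed (E : Set (MeasureTheory.Lp ℝ 1 P)))
    (hinf : ¬ FiniteDimensional ℝ E)
    (htb : Crest.AnalysisR.L1Subspace.UnitBallTotallyBoundedInMeasure P E)
    (hD : Crest.AnalysisR.L1Subspace.HasDaugavetProperty E) :
    (∀ t : ℝ, 0 < t →
      (Crest.AnalysisR.L1Subspace.toRealBanach P E hcl).MidpointModulusGE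
          (Crest.AnalysisR.L1Subspace.toRealBanach P E hcl).norm t (max (t / 2) (t - 1)) ∧
        (Crest.AnalysisR.L1Subspace.toRealBanach P E hcl).MidpointModulusLE
          (Crest.AnalysisR.L1Subspace.toRealBanach P E hcl).norm t (max (t / 2) (t - 1)) ∧
        (Crest.AnalysisR.L1Subspace.toRealBanach P E hcl).OneSidedModulusGE
          (Crest.AnalysisR.L1Subspace.toRealBanach P E hcl).norm t (max 0 (t - 2)) ∧
        (Crest.AnalysisR.L1Subspace.toRealBanach P E hcl).OneSidedModulusLE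
          (Crest.AnalysisR.L1Subspace.toRealBanach P E hcl).norm t (max 0 (t - 2))) ∧
      ∀ N : E → ℝ, (Crest.AnalysisR.L1Subspace.toRealBanach P E hcl).IsEquivNorm N →
        ¬ (Crest.AnalysisR.L1Subspace.toRealBanach P E hcl).IsAUC N := by
  refine ⟨fun t ht => ⟨Crest.Agent.S0167.Helper28.midpoint_ge P E hcl htb t ht, ?_,
    Crest.Agent.S0167.Helper28.oneSided_ge P E hcl t ht, ?_⟩, ?_⟩
  · show ∀ x : E, ‖x‖ = 1 → ∀ F : Set E, Crest.Agent.S0166.Helper32.IsCofG F → ∀ η : ℝ, 0 < η →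
      ∃ y ∈ F, ‖y‖ = 1 ∧ (‖x + t • y‖ + ‖x - t • y‖) / 2 - 1 ≤ max (t / 2) (t - 1) + η
    intro x hx1 F hF η hη
    obtain ⟨y, hyF, hy1, hy2⟩ := Crest.Agent.S0167.Helper29.daugavet_cof hD x hx1 F hF η hη
    refine ⟨y, hyF, hy1, ?_⟩
    have h1 : ‖x + t • y‖ ≤ max 1 (t - 1) + η := norm_add_smul_le hx1 hy1 hη.le hy2 ht
    have h2 : ‖x - t • y‖ ≤ 1 + t := norm_sub_smul_le hx1 hy1 ht
    rcases le_total 1 (t - 1) with h | h
    · rw [max_eq_right h] at h1
      have : t / 2 ≤ t - 1 := by linarith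
      rw [max_eq_right this]
      linarith
    · rw [max_eq_left h] at h1
      have : t - 1 ≤ t / 2 := by linarith
      rw [max_eq_left this]
      linarith
  · show ∀ x : E, ‖x‖ = 1 → ∀ F : Set E, Crest.Agent.S0166.Helper32.IsCofG F → ∀ η : ℝ, 0 < η →
      ∃ y ∈ F, ‖y‖ = 1 ∧ ‖x + t • y‖ - 1 ≤ max 0 (t - 2) + η
    intro x hx1 F hF η hη
    obtain ⟨y, hyF, hy1, hy2⟩ := Crest.Agent.S0167.Helper29.daugavet_cof hD x hx1 F hF η hη
    refine ⟨y, hyF, hy1, ?_⟩
    have h1 : ‖x + t • y‖ ≤ max 1 (t - 1) + η := norm_add_smul_le hx1 hy1 hη.le hy2 ht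
    rcases le_total 1 (t - 1) with h | h
    · rw [max_eq_right h] at h1
      have : (0 : ℝ) ≤ t - 2 := by linarith
      rw [max_eq_right this]
      linarith
    · rw [max_eq_left h] at h1
      have : t - 2 ≤ (0 : ℝ) := by linarith
      rw [max_eq_left this]
      linarith
  · intro N hN hauc
    exact not_isAUCG_of_daugavet hD N hN hauc

end Crest.Agent.S0167
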