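import Crest.Statements.S0223

set_option autoImplicit false
open Crest Crest.ProbabilityR

namespace Crest.Agent.S0223

open Crest.ProbabilityR.Shuffle

/-- One shuffle step is injective on positions. -/
theorem stepPos_injective (m : ℕ) (c : Fin m → Bool) :
    Function.Injective (stepPos m c) := by
  intro x y h
  have hx := x.isLt
  have hy := y.isLt
  have hm : 0 < m := by omega
  have h' : (stepPos m c x).val = (stepPos m c y).val := congrArg Fin.val h
  simp only [stepPos] at h'
  have hxm : x.val % m < m := Nat.mod_lt _ hm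
  have hym : y.val % m < m := Nat.mod_lt _ hm
  -- the quotient parts agree
  have hmod : x.val % m = y.val % m := by
    split_ifs at h' <;> omega
  have hfin : (⟨x.val % m, hxm⟩ : Fin m) = ⟨y.val % m, hym⟩ := Fin.ext hmod
  -- the bits agree
  have hbit : xor (decide (m ≤ x.val)) (c ⟨x.val % m, hxm⟩)
      = xor (decide (m ≤ y.val)) (c ⟨y.val % m, hym⟩) := by
    by_cases h1 : xor (decide (m ≤ x.val)) (c ⟨x.val % m, hxm⟩) = true <;>
    by_cases h2 : xor (decide (m ≤ y.val)) (c ⟨y.val % m, hym⟩) = true
    · rw [h1, h2]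
    · exfalso
      rw [if_pos h1, if_neg h2] at h'
      omega
    · exfalso
      rw [if_neg h1, if_pos h2] at h'
      omega
    · simp only [Bool.not_eq_true] at h1 h2
      rw [h1, h2]
  rw [hfin] at hbit
  have hdec : decide (m ≤ x.val) = decide (m ≤ y.val) := by
    cases hc : c ⟨y.val % m, hym⟩ <;> rw [hc] at hbit <;> simpa using hbit
  have hle : m ≤ x.val ↔ m ≤ y.val := by
    simpa using hdec
  apply Fin.ext
  by_cases hxle : m ≤ x.val
  · have hyle : m ≤ y.val := hle.mp hxle
    have e1 : x.val % m = x.val - m := by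
      rw [Nat.mod_eq_sub_mod hxle, Nat.mod_eq_of_lt (by omega)]
    have e2 : y.val % m = y.val - m := by
      rw [Nat.mod_eq_sub_mod hyle, Nat.mod_eq_of_lt (by omega)]
    omega
  · have hyle : ¬ m ≤ y.val := fun hh => hxle (hle.mpr hh)
    have e1 : x.val % m = x.val := Nat.mod_eq_of_lt (by omega)
    have e2 : y.val % m = y.val := Nat.mod_eq_of_lt (by omega)
    omega

/-- The `t`-fold shuffle map is injective on positions. -/
theorem iterPos_injective (m : ℕ) : ∀ (t : ℕ) (cs : Fin t → Fin m → Bool),
    Function.Injective (iterPos m t cs)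
  | 0, _ => fun x y h => h
  | t + 1, cs => fun x y h => by
      have h1 : stepPos m (cs (Fin.last t)) (iterPos m t (fun i => cs i.castSucc) x)
          = stepPos m (cs (Fin.last t)) (iterPos m t (fun i => cs i.castSucc) y) := h
      exact iterPos_injective m t _ (stepPos_injective m _ h1)

theorem iterPos_bijective (m t : ℕ) (cs : Fin t → Fin m → Bool) :
    Function.Bijective (iterPos m t cs) :=
  (Finite.injective_iff_bijective).mp (iterPos_injective m t cs)

/-- The permutation realised by a bit table. -/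
noncomputable def shufflePerm (m t : ℕ) (cs : Fin t → Fin m → Bool) : Equiv.Perm (Fin (2 * m)) :=
  Equiv.ofBijective (iterPos m t cs) (iterPos_bijective m t cs)

theorem iterPos_eq_iff (m t : ℕ) (cs : Fin t → Fin m → Bool) (g : Equiv.Perm (Fin (2 * m))) :
    iterPos m t cs = ⇑g ↔ shufflePerm m t cs = g := by
  constructor
  · intro h
    apply Equiv.ext
    intro x
    show iterPos m t cs x = g x
    rw [h]
  · intro h
    rw [← h]
    rfl

theorem card_tables (m t : ℕ) : Fintype.card (Fin t → Fin m → Bool) = 2 ^ (m * t) := by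
  simp [pow_mul]

/-- The count of bit tables realising the permutation `g`. -/
noncomputable def cnt (m t : ℕ) (g : Equiv.Perm (Fin (2 * m))) : ℕ :=
  (Finset.univ.filter (fun cs : Fin t → Fin m → Bool => shufflePerm m t cs = g)).card

theorem uniformProb_eq (m t : ℕ) (g : Equiv.Perm (Fin (2 * m))) :
    Crest.FinProb.uniformProb {cs : Fin t → Fin m → Bool | iterPos m t cs = ⇑g}
      = (cnt m t g : ℝ) / ((2 : ℝ) ^ (m * t)) := by
  unfold Crest.FinProb.uniformProb cnt
  rw [card_tables]
  congr 2
  · congr 1
    apply Finset.ext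
    intro cs
    simp only [Finset.mem_filter, Finset.mem_univ, true_and, Set.mem_ofPred_eq]
    exact iterPos_eq_iff m t cs g
  · push_cast
    rfl

theorem sum_cnt (m t : ℕ) : ∑ g : Equiv.Perm (Fin (2 * m)), cnt m t g = 2 ^ (m * t) := by
  unfold cnt
  rw [← card_tables m t]
  rw [← Finset.card_univ]
  exact (Finset.card_eq_sum_card_fiberwise (fun cs _ => Finset.mem_univ _)).symm

/-- For a deck of `2 * 2 ^ d` cards and every number `t` of shuffles, the total variation distance between the law of the arrangement of the deck and the uniform law on all arrangements is at least `1 - 2 ^ (2 ^ d * t) / (2 * 2 ^ d)!`. -/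
theorem result (d t : ℕ) :
    1 - (2 : ℝ) ^ (2 ^ d * t) / ((2 * 2 ^ d).factorial : ℝ)
      ≤ Crest.ProbabilityR.Shuffle.tvFromUniform (2 ^ d) t := by
  set m : ℕ := 2 ^ d with hm
  unfold Crest.ProbabilityR.Shuffle.tvFromUniform
  set N : ℝ := ((2 * m).factorial : ℝ) with hN
  set K : ℝ := (2 : ℝ) ^ (m * t) with hK
  have hNpos : 0 < N := by
    rw [hN]; exact_mod_cast Nat.factorial_pos _
  have hKpos : 0 < K := by
    rw [hK]; positivity
  have hcard : (Fintype.card (Equiv.Perm (Fin (2 * m))) : ℝ) = N := by
    rw [Fintype.card_perm, Fintype.card_fin]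
  have hsum : ∑ g : Equiv.Perm (Fin (2 * m)), (cnt m t g : ℝ) = K := by
    rw [hK]
    have := sum_cnt m t
    exact_mod_cast this
  -- pointwise lower bound
  have hpt : ∀ g : Equiv.Perm (Fin (2 * m)),
      (cnt m t g : ℝ) / K + 1 / N - 2 * (cnt m t g : ℝ) / N
        ≤ |Crest.FinProb.uniformProb {cs : Fin t → Fin m → Bool | iterPos m t cs = ⇑g}
            - 1 / N| := by
    intro g
    rw [uniformProb_eq]
    rcases Nat.eq_zero_or_pos (cnt m t g) with h0 | h1
    · rw [h0]
      simp only [Nat.cast_zero, zero_div, zero_sub, mul_zero, sub_zero, zero_add, abs_neg]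
      exact le_abs_self _
    · have h1' : (1 : ℝ) ≤ (cnt m t g : ℝ) := by exact_mod_cast h1
      have hle : (1 : ℝ) / N ≤ (cnt m t g : ℝ) / N := by
        apply div_le_div_of_nonneg_right h1' hNpos.le
      have : (cnt m t g : ℝ) / K + 1 / N - 2 * (cnt m t g : ℝ) / N
          ≤ (cnt m t g : ℝ) / K - 1 / N := by
        have e : 2 * (cnt m t g : ℝ) / N = 2 * ((cnt m t g : ℝ) / N) := by ring
        rw [e]
        linarith
      exact le_trans this (le_abs_self _)
  have hS : ∑ g : Equiv.Perm (Fin (2 * m)),
      ((cnt m t g : ℝ) / K + 1 / N - 2 * (cnt m t g : ℝ) / N) = 2 - 2 * K / N := by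
    have e1 : ∑ g : Equiv.Perm (Fin (2 * m)), (2 * (cnt m t g : ℝ) / N) = 2 * K / N := by
      rw [← Finset.sum_div, ← Finset.mul_sum, hsum]
    have e2 : ∑ _g : Equiv.Perm (Fin (2 * m)), (1 / N) = 1 := by
      simp only [Finset.sum_const, Finset.card_univ, nsmul_eq_mul]
      rw [hcard]
      field_simp
    have e3 : ∑ g : Equiv.Perm (Fin (2 * m)), ((cnt m t g : ℝ) / K) = 1 := by
      rw [← Finset.sum_div, hsum]
      field_simp
    rw [Finset.sum_sub_distrib, Finset.sum_add_distrib, e1, e2, e3]
    ring
  have hfinal : 2 - 2 * K / N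
      ≤ ∑ g : Equiv.Perm (Fin (2 * m)),
          |Crest.FinProb.uniformProb {cs : Fin t → Fin m → Bool | iterPos m t cs = ⇑g}
            - 1 / N| := by
    rw [← hS]
    exact Finset.sum_le_sum (fun g _ => hpt g)
  have e : 1 - K / N = (1 / 2) * (2 - 2 * K / N) := by ring
  rw [e]
  exact mul_le_mul_of_nonneg_left hfinal (by norm_num)

end Crest.Agent.S0223
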