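import Crest.Statements.S0423
-- import your own Crest.Agent.* helpers here
import Crest.Agent.Lib.S0423.Defs
import Crest.Agent.Lib.S0423.Helper41Fubini
import Crest.Agent.Lib.S0423.Helper74Layer
import Crest.Agent.Lib.S0423.Helper2Step
import Crest.Agent.Lib.S0423.Helper2Mean
import Crest.Agent.Lib.S0423.Helper4PF2
import Crest.Agent.Lib.S0423.Helper33Calc
import Crest.Agent.Lib.S0423.Helper22Compare
import Crest.Agent.Lib.S0423.Helper43ExpTail
import Crest.Agent.Lib.S0423.Helper41Approach

set_option autoImplicit false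
open Crest Crest.AlgGeometry

namespace Crest.Agent.S0423

/-- All the properties of the tail of `∑ a_i X_i`, by induction on the number of coordinates. -/
theorem h22_tailN_props : ∀ (N : ℕ) (a : Fin N → ℝ),
    IsTail (tailN N a) ∧ PF2 (tailN N a) ∧
      MeasureTheory.Integrable (fun s => tailN N a s - tail0 s) ∧
      ∫ s, (tailN N a s - tail0 s) = ∑ i, a i ∧
      (∃ s, tailN N a s < 1) ∧ ((∃ i, a i < 0) → ∀ s, tailN N a s < 1) := by
  intro N
  induction N with
  | zero =>
    intro a
    rw [tailN_zero]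
    refine ⟨isTail_tail0, pf2_tail0, ?_, ?_, tail0_exists_lt_one, ?_⟩
    · simp
    · simp
    · rintro ⟨i, _⟩
      exact i.elim0
  | succ n ih =>
    intro a
    obtain ⟨hT, hP, hI, hM, hE, hA⟩ := ih (Fin.tail a)
    rw [tailN_succ]
    obtain ⟨hI', hM'⟩ := tailStep_mean (a 0) hT hI
    refine ⟨isTail_tailStep (a 0) hT, pf2_tailStep (a 0) hT hP, hI', ?_,
      tailStep_exists_lt_one (a 0) hT hE, ?_⟩
    · rw [hM', hM, Fin.sum_univ_succ]
      simp only [Fin.tail]
      ring
    · rintro ⟨i, hi⟩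
      rcases Fin.eq_zero_or_eq_succ i with h | ⟨j, h⟩
      · subst h
        exact tailStep_lt_one_of_neg hi hT hE
      · subst h
        exact tailStep_lt_one (a 0) hT (hA ⟨j, hi⟩)

/-- If all coefficients vanish, the functional is evaluation at `0`. -/
theorem h22_J_zero_coeff (N : ℕ) (a : Fin N → ℝ) (ha : ∀ i, a i = 0) (F : ℝ → ℝ) :
    J N a F = F 0 := by
  have h1 : J N a F = F 0 * J N a (fun _ => 1) := by
    unfold J
    rw [← MeasureTheory.integral_const_mul]
    congr 1
    ext x
    simp [ha]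
  rw [h1, J_one, mul_one]

/-- The upper bound, in normalised form. -/
theorem h22_upper (N : ℕ) (a : Fin N → ℝ) (hsum : ∑ i, a i = 0) :
    J N a psi ≤ 1 - 4/9 * Real.exp (-(1/3)) := by
  by_cases hall : ∀ i, a i = 0
  · rw [h22_J_zero_coeff N a hall]
    exact psi_zero_le
  · have hneg : ∃ i, a i < 0 := by
      by_contra hcon
      push Not at hcon
      exact hall (fun i => (Finset.sum_eq_zero_iff_of_nonneg (fun i _ => hcon i)).mp hsum i
        (Finset.mem_univ i))
    obtain ⟨hT, hP, hI, hM, -, hA⟩ := h22_tailN_props N a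
    rw [hsum] at hM
    obtain ⟨t, ht, hcmp⟩ := compare_expTail hT hP hI hM ⟨-1, by norm_num, hA hneg (-1)⟩
    have hb := expTail_bound (t := t) ht.le
    rw [J_psi]
    linarith

/-- For independent mean-one exponential random variables `X_1, …, X_N` (written as an integral over the positive orthant against the density `exp (-(x_1 + ⋯ + x_N))`), real coefficients `a_1, …, a_N` summing to zero, and the weight `g = truncExpWeight`, the quantity `(e^{4/3} / (4/3)) · E[g(4/3 + a_1 X_1 + ⋯ + a_N X_N)]` has supremum over all `N ≥ 1` and all such `a` exactly `(3/4) e^{4/3} − e/3`: it never exceeds this value, and comes within any `ε > 0` of it for some `N` and `a`. -/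
theorem result :
    (∀ (N : ℕ) (a : Fin N → ℝ), 1 ≤ N → ∑ i, a i = 0 →
      Real.exp (4 / 3) / (4 / 3) *
          ∫ x in Set.pi Set.univ (fun _ : Fin N => Set.Ioi (0 : ℝ)),
            Crest.AlgGeometry.truncExpWeight (4 / 3 + ∑ i, a i * x i) * Real.exp (-∑ i, x i)
        ≤ 3 / 4 * Real.exp (4 / 3) - Real.exp 1 / 3) ∧
    (∀ ε : ℝ, 0 < ε → ∃ (N : ℕ) (a : Fin N → ℝ), 1 ≤ N ∧ ∑ i, a i = 0 ∧
      3 / 4 * Real.exp (4 / 3) - Real.exp 1 / 3 - ε <
        Real.exp (4 / 3) / (4 / 3) *
          ∫ x in Set.pi Set.univ (fun _ : Fin N => Set.Ioi (0 : ℝ)),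
            Crest.AlgGeometry.truncExpWeight (4 / 3 + ∑ i, a i * x i) * Real.exp (-∑ i, x i)) := by
  have hK : 0 < Real.exp (4 / 3) / (4 / 3) := by positivity
  have hexp : Real.exp (4 / 3) * Real.exp (-(1 / 3)) = Real.exp 1 := by
    rw [← Real.exp_add]
    norm_num
  have hval : Real.exp (4 / 3) / (4 / 3) * (1 - 4 / 9 * Real.exp (-(1 / 3)))
      = 3 / 4 * Real.exp (4 / 3) - Real.exp 1 / 3 := by
    rw [← hexp]
    ring
  constructor
  · intro N a _ hsum
    change Real.exp (4 / 3) / (4 / 3) * J N a psi ≤ _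
    have h := h22_upper N a hsum
    rw [← hval]
    exact mul_le_mul_of_nonneg_left h hK.le
  · intro ε hε
    obtain ⟨N, a, hN, hsum, hlt⟩ := approach (ε / (Real.exp (4 / 3) / (4 / 3))) (div_pos hε hK)
    refine ⟨N, a, hN, hsum, ?_⟩
    change _ < Real.exp (4 / 3) / (4 / 3) * J N a psi
    have h := mul_lt_mul_of_pos_left hlt hK
    rw [mul_sub, hval, mul_div_cancel₀ _ hK.ne'] at h
    exact h

end Crest.Agent.S0423
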